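import Vale.Agent.P335.SharpFinal
import Vale.Agent.P335.ChainPms

/-!
# P335: the Kannan-Tetali-Vempala conjecture for simple graphs, in the wording of the problem

There is a polynomial `p` (namely `X ^ 6`) with `t_mix(d) ≤ p(n)` for every `n ≥ 4` and every
graphical degree vector `d` on `n` labelled vertices.  The statement also records that the objects
are the ones of the problem: every 4-set carries exactly six ordered pairs of distinct perfect
matchings, the matrix `switchChain d` is stochastic with the uniform law stationary, and `tmix d`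
is the least element of the set of times at which the worst-case total variation distance is at
most `1/4`.  The definitions (`Om`, `pms`, `switchStep`, `switchKernel`, `switchChain`, `tv`,
`unif`, `tmix`) are in `Vale/Agent/P335/Defs.lean`.
-/

namespace Vale.Agent.Results.P335.KTVPolynomialBound

open Vale.Agent.P335

theorem chain_apply {n : ℕ} (d : Fin n → ℕ) (G G' : Om d) :
    switchChain d G G' = (1 / 2 : ℝ) * (if G = G' then 1 else 0)
      + (1 / 2 : ℝ) * switchKernel d G G' := by
  unfold switchChain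
  exact mix_P_apply (switchKernel d) G G'

theorem chain_nonneg {n : ℕ} (d : Fin n → ℕ) (G G' : Om d) : 0 ≤ switchChain d G G' := by
  rw [chain_apply]
  have h := switchKernel_nonneg (d := d) G G'
  split_ifs <;> linarith

theorem chain_symm {n : ℕ} (d : Fin n → ℕ) (G G' : Om d) :
    switchChain d G G' = switchChain d G' G := by
  rw [chain_apply, chain_apply, switchKernel_symm G G']
  by_cases h : G = G'
  · rw [if_pos h, if_pos h.symm]
  · rw [if_neg h, if_neg (fun e => h e.symm)]

theorem chain_row_sum {n : ℕ} (hn : 4 ≤ n) (d : Fin n → ℕ) (G : Om d) :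
    ∑ G' : Om d, switchChain d G G' = 1 := by
  have hV : 4 ≤ Fintype.card (Fin n) := by simpa using hn
  simp only [chain_apply]
  rw [Finset.sum_add_distrib, ← Finset.mul_sum, ← Finset.mul_sum, switchKernel_row_sum hV G]
  simp
  norm_num

theorem tv_le_of_ge {n : ℕ} (hn : 4 ≤ n) (d : Fin n → ℕ) (t : ℕ) (ht : n ^ 6 ≤ t) (G : Om d) :
    tv ((switchChain d ^ t) G) (unif d) ≤ 1 / 4 := by
  have hV : 4 ≤ Fintype.card (Fin n) := by simpa using hn
  have h4 : (1 : ℝ) ≤ ((Fintype.card (Fin n)).choose 4 : ℝ) := by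
    have : 0 < (Fintype.card (Fin n)).choose 4 := Nat.choose_pos hV
    exact_mod_cast this
  have hden : (1 : ℝ) ≤ 24 * ((Fintype.card (Fin n)).choose 4 : ℝ) := by
    linarith
  have hγ0 : (0 : ℝ) < 1 / (24 * ((Fintype.card (Fin n)).choose 4 : ℝ)) := by positivity
  have hγ1 : 1 / (24 * ((Fintype.card (Fin n)).choose 4 : ℝ)) ≤ 1 := by
    rw [div_le_one (by linarith)]
    exact hden
  have key := tv_le_of_poincare (switchKernel d) switchKernel_nonneg switchKernel_symm
    (switchKernel_row_sum hV) _ hγ0 hγ1 (fun F hF => chain_poincare_sharp hV F hF) t G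
  have hnum := numeric_bound_sharp (Fintype.card (Fin n)) hV (Fintype.card (Om d) : ℝ)
    (Nat.cast_nonneg _) (card_Om_le_sharp d)
  have ht' : (Fintype.card (Fin n)) ^ 6 ≤ t := by simpa using ht
  have hmono : (1 - 1 / (24 * ((Fintype.card (Fin n)).choose 4 : ℝ))) ^ t
      ≤ (1 - 1 / (24 * ((Fintype.card (Fin n)).choose 4 : ℝ))) ^ ((Fintype.card (Fin n)) ^ 6) :=
    pow_le_pow_of_le_one (by linarith) (by linarith) ht'
  have hsqrt : Real.sqrt ((Fintype.card (Om d) : ℝ)
        * (1 - 1 / (24 * ((Fintype.card (Fin n)).choose 4 : ℝ))) ^ t)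
      ≤ Real.sqrt ((Fintype.card (Om d) : ℝ)
        * (1 - 1 / (24 * ((Fintype.card (Fin n)).choose 4 : ℝ))) ^ ((Fintype.card (Fin n)) ^ 6)) :=
    Real.sqrt_le_sqrt (mul_le_mul_of_nonneg_left hmono (Nat.cast_nonneg _))
  have h2 : (1 / 2 : ℝ) * Real.sqrt ((Fintype.card (Om d) : ℝ)
        * (1 - 1 / (24 * ((Fintype.card (Fin n)).choose 4 : ℝ))) ^ t) ≤ 1 / 4 := by
    linarith
  exact key.trans h2

theorem result : ∃ p : Polynomial ℕ, p = Polynomial.X ^ 6 ∧
    ∀ n : ℕ, 4 ≤ n → ∀ d : Fin n → ℕ, Nonempty (Om d) →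
      (∀ S : Finset (Fin n), S.card = 4 → (pms S).offDiag.card = 6) ∧
      (∀ G G' : Om d, 0 ≤ switchChain d G G') ∧
      (∀ G : Om d, ∑ G' : Om d, switchChain d G G' = 1) ∧
      (∀ G' : Om d, ∑ G : Om d, unif d G * switchChain d G G' = unif d G') ∧
      IsLeast {t : ℕ | ∀ G : Om d, tv ((switchChain d ^ t) G) (unif d) ≤ 1 / 4} (tmix d) ∧
      tmix d ≤ p.eval n ∧
      ∀ t : ℕ, n ^ 6 ≤ t → ∀ G : Om d, tv ((switchChain d ^ t) G) (unif d) ≤ 1 / 4 := by
  refine ⟨Polynomial.X ^ 6, rfl, ?_⟩
  intro n hn d _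
  have hV : 4 ≤ Fintype.card (Fin n) := by simpa using hn
  have hmem : n ^ 6 ∈ {t : ℕ | ∀ G : Om d, tv ((switchChain d ^ t) G) (unif d) ≤ 1 / 4} :=
    fun G => tv_le_of_ge hn d _ le_rfl G
  refine ⟨?_, chain_nonneg d, chain_row_sum hn d, ?_, ⟨?_, ?_⟩, ?_, ?_⟩
  · intro S hS
    rw [Finset.offDiag_card, card_pms S hS]
  · intro G'
    unfold unif
    rw [← Finset.mul_sum]
    have : ∑ G : Om d, switchChain d G G' = 1 := by
      rw [← chain_row_sum hn d G']
      exact Finset.sum_congr rfl fun G _ => chain_symm d G G'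
    rw [this, mul_one]
  · exact Nat.sInf_mem ⟨_, hmem⟩
  · intro t ht
    exact Nat.sInf_le ht
  · have := tmix_le_sharp hV d
    simpa using this
  · intro t ht G
    exact tv_le_of_ge hn d t ht G

end Vale.Agent.Results.P335.KTVPolynomialBound
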