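import Vale.Agent.Results.P335.KTVPolynomialBound

/-!
# P335: the Kannan-Tetali-Vempala conjecture for simple graphs, stated with Mathlib notions only
-/

namespace Vale.Agent.Results.P335.MathlibOnlyForm

open Vale.Agent.P335

theorem aux {n : ℕ} (hn : 4 ≤ n) (d : Fin n → ℕ) (hne : Nonempty (Om d))
    (instF : Fintype (Om d)) (instD : DecidableEq (Om d))
    (P : Matrix (Om d) (Om d) ℝ) (hP : P = switchChain d) :
    ∃ T : ℕ,
        IsLeast {t : ℕ | ∀ G : Om d,
          (1 / 2 : ℝ) * ∑ G' : Om d, |(P ^ t) G G' - 1 / (Fintype.card (Om d) : ℝ)| ≤ 1 / 4} T ∧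
        T ≤ (Polynomial.X ^ 6 : Polynomial ℕ).eval n ∧
        ∀ t : ℕ, n ^ 6 ≤ t → ∀ G : Om d,
          (1 / 2 : ℝ) * ∑ G' : Om d, |(P ^ t) G G' - 1 / (Fintype.card (Om d) : ℝ)| ≤ 1 / 4 := by
  have h1 : instF = instFintypeOm d := Subsingleton.elim _ _
  have h2 : instD = instDecidableEqOm d := Subsingleton.elim _ _
  subst h1 h2 hP
  obtain ⟨p, hp, h⟩ := KTVPolynomialBound.result
  subst hp
  obtain ⟨-, -, -, -, h5, h6, h7⟩ := h n hn d hne
  exact ⟨tmix d, h5, h6, h7⟩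

open Classical in
theorem chain_formula {n : ℕ} (d : Fin n → ℕ) (G G' : Om d) :
    switchChain d G G' = (1 / 2 : ℝ) * (if G = G' then 1 else 0) + (1 / 2 : ℝ) *
        ∑ S ∈ (Finset.univ : Finset (Fin n)).powersetCard 4, (1 / (n.choose 4 : ℝ)) *
          ∑ q ∈ ((S.sym2.powerset).filter
              (fun F => (∀ e ∈ F, ¬ e.IsDiag) ∧ ∀ v ∈ S, ∃! e, e ∈ F ∧ v ∈ e)).offDiag,
            (1 / 6 : ℝ) *
              (if (if (∀ e ∈ q.1, e ∈ (G.1 : SimpleGraph (Fin n)).edgeSet) ∧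
                      (∀ e ∈ q.2, e ∉ (G.1 : SimpleGraph (Fin n)).edgeSet)
                   then SimpleGraph.fromEdgeSet
                      (((G.1 : SimpleGraph (Fin n)).edgeSet \ (q.1 : Set (Sym2 (Fin n))))
                        ∪ (q.2 : Set (Sym2 (Fin n))))
                   else (G.1 : SimpleGraph (Fin n))) = (G'.1 : SimpleGraph (Fin n))
               then 1 else 0) := by
  rw [KTVPolynomialBound.chain_apply]
  unfold switchKernel pms switchStep
  rw [Fintype.card_fin]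
  refine congrArg₂ (fun a b : ℝ => a + b) ?_ ?_
  · refine congrArg (fun a : ℝ => 1 / 2 * a) ?_
    with_reducible rfl
  · refine congrArg (fun a : ℝ => 1 / 2 * a) ?_
    refine Finset.sum_congr rfl fun S _ => ?_
    refine congrArg (fun a : ℝ => 1 / (n.choose 4 : ℝ) * a) ?_
    refine Finset.sum_congr ?_ fun q _ => ?_
    · ext q
      simp only [Finset.mem_offDiag, Finset.mem_filter]
    · refine congrArg (fun a : ℝ => 1 / 6 * a) ?_
      with_reducible rfl

open Classical in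
theorem result : ∃ p : Polynomial ℕ, p = Polynomial.X ^ 6 ∧
    ∀ n : ℕ, 4 ≤ n → ∀ d : Fin n → ℕ,
    ∀ Ω : Set (SimpleGraph (Fin n)), Ω = {G | ∀ v, G.degree v = d v} → Ω.Nonempty →
    ∀ P : Matrix Ω Ω ℝ,
      (∀ G G' : Ω, P G G' = (1 / 2 : ℝ) * (if G = G' then 1 else 0) + (1 / 2 : ℝ) *
        ∑ S ∈ (Finset.univ : Finset (Fin n)).powersetCard 4, (1 / (n.choose 4 : ℝ)) *
          ∑ q ∈ ((S.sym2.powerset).filter
              (fun F => (∀ e ∈ F, ¬ e.IsDiag) ∧ ∀ v ∈ S, ∃! e, e ∈ F ∧ v ∈ e)).offDiag,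
            (1 / 6 : ℝ) *
              (if (if (∀ e ∈ q.1, e ∈ (G : SimpleGraph (Fin n)).edgeSet) ∧
                      (∀ e ∈ q.2, e ∉ (G : SimpleGraph (Fin n)).edgeSet)
                   then SimpleGraph.fromEdgeSet
                      (((G : SimpleGraph (Fin n)).edgeSet \ (q.1 : Set (Sym2 (Fin n))))
                        ∪ (q.2 : Set (Sym2 (Fin n))))
                   else (G : SimpleGraph (Fin n))) = (G' : SimpleGraph (Fin n))
               then 1 else 0)) →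
      ∃ T : ℕ,
        IsLeast {t : ℕ | ∀ G : Ω,
          (1 / 2 : ℝ) * ∑ G' : Ω, |(P ^ t) G G' - 1 / (Fintype.card Ω : ℝ)| ≤ 1 / 4} T ∧
        T ≤ p.eval n ∧
        ∀ t : ℕ, n ^ 6 ≤ t → ∀ G : Ω,
          (1 / 2 : ℝ) * ∑ G' : Ω, |(P ^ t) G G' - 1 / (Fintype.card Ω : ℝ)| ≤ 1 / 4 := by
  refine ⟨Polynomial.X ^ 6, rfl, ?_⟩
  intro n hn d Ω hΩ hne P hP
  subst hΩ
  obtain ⟨G0, hG0⟩ := hne
  refine aux hn d ⟨⟨G0, hG0⟩⟩ _ _ P ?_
  have key : ∀ G G' : Om d, P G G' = switchChain d G G' := by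
    intro G G'
    refine (hP G G').trans (Eq.trans ?_ (chain_formula d G G').symm)
    refine congrArg₂ (fun a b : ℝ => a + b) ?_ rfl
    refine congrArg (fun a : ℝ => 1 / 2 * a) ?_
    by_cases h : G = G'
    · exact (if_pos h).trans (if_pos h).symm
    · exact (if_neg h).trans (if_neg h).symm
  exact funext fun G => funext fun G' => key G G'

end Vale.Agent.Results.P335.MathlibOnlyForm
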