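import Vale.Agent.P335.SharpFinal

/-!
# P335: the Kannan-Tetali-Vempala conjecture for simple graphs, in the wording of Q1

There is a polynomial `p` such that the mixing time of the switch chain is at most `p n` for every
`n ≥ 4` and every graphical degree vector on `n` vertices.
-/

namespace Vale.Agent.Results.P335.PolynomialForm

open Vale.Agent.P335

theorem result : ∃ p : Polynomial ℕ, ∀ n : ℕ, 4 ≤ n → ∀ d : Fin n → ℕ, Nonempty (Om d) →
    (∀ G : Om d, tv ((switchChain d ^ tmix d) G) (unif d) ≤ 1 / 4) ∧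
    (∀ t : ℕ, t < tmix d → ∃ G : Om d, 1 / 4 < tv ((switchChain d ^ t) G) (unif d)) ∧
    tmix d ≤ p.eval n := by
  refine ⟨Polynomial.X ^ 6, fun n hn d _ => ?_⟩
  have hV : 4 ≤ Fintype.card (Fin n) := by simpa using hn
  have hmem : n ^ 6 ∈ {t : ℕ | ∀ G : Om d, tv ((switchChain d ^ t) G) (unif d) ≤ 1 / 4} := by
    intro G
    have := tv_switchChain_le_sharp (d := d) hV G
    simpa using this
  refine ⟨Nat.sInf_mem ⟨_, hmem⟩, fun t ht => ?_, ?_⟩
  · have h := Nat.notMem_of_lt_sInf ht
    simp only [Set.mem_setOf_eq, not_forall, not_le] at h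
    exact h
  · have h : tmix d ≤ n ^ 6 := Nat.sInf_le hmem
    simpa using h

end Vale.Agent.Results.P335.PolynomialForm
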