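import Vale.Agent.P335.SharpFinal

/-!
# P335: the Kannan-Tetali-Vempala conjecture for simple graphs, with the bound `n ^ 6`

The switch chain on the realisations of ANY graphical degree sequence on `n ≥ 4` vertices has
mixing time at most `n ^ 6`.  The definitions (`Om`, `pms`, `switchStep`, `switchKernel`,
`switchChain`, `tv`, `unif`, `tmix`) are in `Vale/Agent/P335/Defs.lean`.
-/

namespace Vale.Agent.Results.P335.SwitchChainMixingN6

open Vale.Agent.P335

theorem result : ∀ n : ℕ, 4 ≤ n → ∀ d : Fin n → ℕ, Nonempty (Om d) →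
    (∀ G : Om d, tv ((switchChain d ^ (n ^ 6)) G) (unif d) ≤ 1 / 4) ∧ tmix d ≤ n ^ 6 := by
  intro n hn d _
  have hV : 4 ≤ Fintype.card (Fin n) := by simpa using hn
  refine ⟨fun G => ?_, ?_⟩
  · have := tv_switchChain_le_sharp (d := d) hV G
    simpa using this
  · have := tmix_le_sharp hV d
    simpa using this

end Vale.Agent.Results.P335.SwitchChainMixingN6
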